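import Mathlib.LinearAlgebra.Matrix.GeneralLinearGroup.Defs
import Mathlib.LinearAlgebra.Matrix.Notation

/-!
The Suzuki groups.
-/

set_option autoImplicit false

namespace Vale.Agent.P240.R2.H487.N

open Matrix

variable {F : Type*} [Field F]

/-- The lower unitriangular matrices `S(a, b)`. -/
def szS (θ : F →+* F) (a b : F) : Matrix (Fin 4) (Fin 4) F :=
  !![1, 0, 0, 0; a, 1, 0, 0; b, θ a, 1, 0; a ^ 2 * θ a + a * b + θ b, a * θ a + b, a, 1]

/-- The diagonal matrices. -/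
def szH (θ : F →+* F) (μ : F) : Matrix (Fin 4) (Fin 4) F :=
  !![μ * θ μ, 0, 0, 0; 0, μ, 0, 0; 0, 0, μ⁻¹, 0; 0, 0, 0, (μ * θ μ)⁻¹]

/-- The antidiagonal matrix. -/
def szW (F : Type*) [Field F] : Matrix (Fin 4) (Fin 4) F :=
  !![0, 0, 0, 1; 0, 0, 1, 0; 0, 1, 0, 0; 1, 0, 0, 0]

/-- The Suzuki group: the subgroup of `GL_4(F)` generated by the matrices `S(a, b)`, the diagonal
matrices and the antidiagonal matrix. -/
def Sz (θ : F →+* F) : Subgroup (GL (Fin 4) F) :=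
  Subgroup.closure
    {g | (∃ a b : F, g.1 = szS θ a b) ∨ (∃ μ : F, μ ≠ 0 ∧ g.1 = szH θ μ) ∨ g.1 = szW F}

/-- `L` is isomorphic to the Suzuki group `Sz(q)`, where `q = |F| > 2`: there is an endomorphism `θ` of
`F` with `θ (θ x) = x ^ 2`, and `θ` is not the identity. -/
def IsSz (F : Type*) [Field F] (L : Type*) [Group L] : Prop :=
  ∃ θ : F →+* F, (∀ x, θ (θ x) = x ^ 2) ∧ (∃ x, θ x ≠ x) ∧ Nonempty (L ≃* Sz θ)

end Vale.Agent.P240.R2.H487.N
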