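import Mathlib.GroupTheory.SpecificGroups.Alternating
import Mathlib.GroupTheory.Sylow
import Mathlib.LinearAlgebra.Matrix.ProjectiveSpecialLinearGroup
import Mathlib.LinearAlgebra.QuadraticForm.Basic
import Mathlib.LinearAlgebra.SymplecticGroup
import Vale.Agent.P240.R2.H387.ODefs
import Vale.Agent.P240.R2.H487.N.Sz
import Vale.Agent.P240.R2.H63.OrdDefs
import Vale.Agent.P240.R2.H775.ReDefs
import Vale.Agent.P240.R2.H945.W.TwDefs

/-!
The simple groups in the main theorem: alternating groups, classical groups, exceptional groups.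
-/

set_option autoImplicit false

namespace Vale.Agent.P240.R2.H487.N

open Matrix

/-- `L` is isomorphic to `G` modulo its centre. -/
def ModZ (G L : Type*) [Group G] [Group L] : Prop := Nonempty (L ≃* (G ⧸ Subgroup.center G))

/-- `L` is isomorphic to the commutator subgroup of `G` modulo its centre. -/
def DerModZ (G L : Type*) [Group G] [Group L] : Prop :=
  Nonempty (L ≃* ↥(commutator (G ⧸ Subgroup.center G)))

/-- `L` is isomorphic to an alternating group of degree `n ≥ 5`. -/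
def Alt (L : Type*) [Group L] : Prop := ∃ n : ℕ, 5 ≤ n ∧ Nonempty (L ≃* alternatingGroup (Fin n))

/-- The Sylow `p`-subgroups of `Aut(L)` are cyclic. -/
def CycAut (p : ℕ) (L : Type*) [Group L] : Prop := ∀ P : Sylow p (MulAut L), IsCyclic P

/-- `L` is isomorphic to `PSL_n(F)`. -/
def PSLn (n : ℕ) (F : Type*) [Field F] (L : Type*) [Group L] : Prop :=
  Nonempty (L ≃* ProjectiveSpecialLinearGroup (Fin n) F)

/-- `L` is isomorphic to `PSp_{2m}(F)`, `m ≥ 2`. -/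
def PSp (F : Type*) [Field F] (L : Type*) [Group L] : Prop :=
  ∃ m : ℕ, 2 ≤ m ∧ ModZ (symplecticGroup (Fin m) F) L

/-- The antidiagonal matrix of degree `n` with entries `1, -1, 1, …`. -/
def AntiD (n : ℕ) (F : Type*) [Field F] : Matrix (Fin n) (Fin n) F :=
  Matrix.of fun i j => if j = Fin.rev i then (-1) ^ i.val else 0

/-- `SU_n(q)`: the matrices `A` of determinant `1` with `(σ A)ᵀ J A = J`, `J = AntiD n F` (they form a
group; `closure` only names it). -/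
def SUn (n : ℕ) {F : Type*} [Field F] (σ : F ≃+* F) : Subgroup (SpecialLinearGroup (Fin n) F) :=
  Subgroup.closure {A | (A.1.map σ)ᵀ * AntiD n F * A.1 = AntiD n F}

/-- `L` is isomorphic to `PSU_n(q)`, where `F` has `q ^ 2` elements and `σ` is the automorphism of `F`
of order `2`. -/
def PSUn (n : ℕ) (F : Type*) [Field F] (L : Type*) [Group L] : Prop :=
  ∃ σ : F ≃+* F, (∀ x, σ (σ x) = x) ∧ (∃ x, σ x ≠ x) ∧ ModZ (SUn n σ) L

/-- `O(Q)`: the isometries of a quadratic form on `F ^ n` (they form a group; `closure` only names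
it). -/
def OrtQ {n : ℕ} {F : Type*} [Field F] (Q : QuadraticForm F (Fin n → F)) :
    Subgroup (GL (Fin n) F) := Subgroup.closure {g | ∀ v, Q (g.1 *ᵥ v) = Q v}

/-- `L` is isomorphic to `PΩ(Q)`, where `Q` is a quadratic form on `F ^ n` whose polar form is
nondegenerate. -/
def POn (n : ℕ) (F : Type*) [Field F] (L : Type*) [Group L] : Prop :=
  ∃ Q : QuadraticForm F (Fin n → F), (∀ v, (∀ w, QuadraticMap.polar Q v w = 0) → v = 0) ∧
    DerModZ (OrtQ Q) L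

/-- `n ≥ 4` is a power of `2`. -/
def TwoPow (n : ℕ) : Prop := ∃ a : ℕ, 2 ≤ a ∧ n = 2 ^ a

/-- `|F|` is `3`, `5`, `9` or `25`. -/
def Small (F : Type*) : Prop := Nat.card F ∈ ({3, 5, 9, 25} : Set ℕ)

/-- `|F| = q ^ 2`, and `q = 3` and `n` is even, or `q = 5` and `n` is divisible by `2` or `3`. -/
def SmallU (n : ℕ) (F : Type*) : Prop :=
  (Nat.card F = 9 ∧ n % 2 = 0) ∨ (Nat.card F = 25 ∧ (n % 2 = 0 ∨ n % 3 = 0))

/-- `|F| = q ^ 2`, and `q = 3` and `n` is divisible by `4`, or `q = 5` and `n` is even. -/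
def SmallV (n : ℕ) (F : Type*) : Prop :=
  (Nat.card F = 9 ∧ n % 4 = 0) ∨ (Nat.card F = 25 ∧ n % 2 = 0)

/-- `|F|` is `3`, `5`, `9` or `25`, and `n` is even. -/
def SmallO (n : ℕ) (F : Type*) : Prop := Small F ∧ n % 2 = 0

/-- The characteristic of `F` is `l` or the characteristic of `𝕜`. -/
def CharIn (𝕜 : Type*) [Field 𝕜] (l : ℕ) (F : Type*) [Field F] : Prop :=
  (l : F) = 0 ∨ ∃ r : ℕ, r.Prime ∧ (r : F) = 0 ∧ (r : 𝕜) = 0

/-- `L` is `E₆(F)`, and `p ≥ 5`; or `p = 3`, and `3` does not divide `|F| - 1` or `|F|` is not a cube;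
or `p = 2`, `3` does not divide `|F| - 1` and `|F|` is not a square. -/
def E6Few (p : ℕ) (F : Type) [Field F] (L : Type*) [Group L] : Prop :=
  H165.IsChevA CartanMatrix.E₆ F L ∧ (5 ≤ p ∨
    (p = 3 ∧ (¬ 3 ∣ Nat.card F - 1 ∨ ∀ m : ℕ, Nat.card F ≠ m ^ 3)) ∨
    (p = 2 ∧ ¬ 3 ∣ Nat.card F - 1 ∧ ∀ m : ℕ, Nat.card F ≠ m ^ 2))

/-- Groups of exceptional type over `F`: `G₂(F)`, `F₄(F)`, `E₈(F)` (`IsChevU`), `E₇(F)`, `³D₄(q)`,
`²F₄(q)`, `Sz(q)`, `²G₂(q)`, and `E₆(F)` and `²E₆(q)` with a condition on `p`. -/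
def ExcFew (p : ℕ) (F : Type) [Field F] (L : Type*) [Group L] : Prop :=
  H165.IsChevU F L ∨ H165.IsChevA CartanMatrix.E₇ F L ∨ E6Few p F L ∨ H945.Is3D4 F L ∨
    H945.Is2E6Few p F L ∨ H387.Is2F4 F L ∨ IsSz F L ∨ H775.Re.IsRee F L

/-- `L` is `E₆(F)` or `²E₆(q)`. -/
def ExcAny (F : Type) [Field F] (L : Type*) [Group L] : Prop :=
  H165.IsChevA CartanMatrix.E₆ F L ∨ H945.Is2E6 F L

/-- `L` satisfies `ExcFew p`, or `ExcAny`, and in this case `c` holds. -/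
def Exc (p : ℕ) (c : Prop) (F : Type) [Field F] (L : Type*) [Group L] : Prop :=
  ExcFew p F L ∨ (c ∧ ExcAny F L)

/-- `L` is an alternating group, a classical group, a group as in `OrdFree 2`, or as in `ExcFew 2`, or
as in `ExcAny`, of characteristic `2`, `3` or `5`. -/
def AltLie (L : Type*) [Group L] : Prop :=
  Alt L ∨ H63.OrdFree 2 L ∨ ∃ (F : Type) (_ : Field F) (_ : Finite F), (∃ n : ℕ, PSLn n F L) ∨ PSp F L ∨
    (∃ n : ℕ, 3 ≤ n ∧ PSUn n F L) ∨ (∃ n : ℕ, 5 ≤ n ∧ POn n F L) ∨ Exc 2 ((30 : F) = 0) F L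

/-- `L` is as in `AltLie`, and the characteristic of `F` is `l` or the characteristic of `𝕜` for
certain groups over small fields `F`, and for `ExcAny`, if it is not `2`. -/
def AltLieAt (𝕜 : Type*) [Field 𝕜] (l : ℕ) (L : Type*) [Group L] : Prop :=
  Alt L ∨ H63.OrdFree 2 L ∨ ∃ (F : Type) (_ : Field F) (_ : Finite F),
    (∃ n : ℕ, (TwoPow n → Small F → CharIn 𝕜 l F ∨ (l = 2 ∧ Nat.card F = 3 ∧ n ≠ 8)) ∧
      PSLn n F L) ∨ PSp F L ∨
    (∃ n : ℕ, 3 ≤ n ∧ (SmallV n F → CharIn 𝕜 l F) ∧ PSUn n F L) ∨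
    (∃ n : ℕ, 5 ≤ n ∧ (SmallO n F → CharIn 𝕜 l F) ∧ POn n F L) ∨
    Exc 2 ((2 : F) = 0 ∨ CharIn 𝕜 l F) F L

/-- The groups that can be eliminated for the prime `2`: an alternating group, a symplectic group, a
unitary or orthogonal group outside `SmallU` and `SmallO`, a group as in `ExcFew 2`, or as in `ExcAny`,
of characteristic `2`; and `PSL_n(F)`, where `|F|` is even, or `n ≥ 4` is a power of `2` and `|F|` is not
`3`, `5`, `9` or `25`, or `n = 2`, or `n` is prime to `|F| - 1` and `|F|` is not a square. -/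
def ElimTwo (L : Type*) [Group L] : Prop :=
  Alt L ∨ ∃ (F : Type) (_ : Field F) (_ : Finite F),
    (∃ n : ℕ, ((2 : F) = 0 ∨ (TwoPow n ∧ ¬ Small F) ∨ n = 2 ∨
      (n.Coprime (Nat.card F - 1) ∧ ¬ IsSquare (Nat.card F))) ∧ PSLn n F L) ∨ PSp F L ∨
    (∃ n : ℕ, 3 ≤ n ∧ ¬ SmallU n F ∧ PSUn n F L) ∨
    (∃ n : ℕ, 5 ≤ n ∧ ¬ SmallO n F ∧ POn n F L) ∨ Exc 2 ((2 : F) = 0) F L

/-- The groups for an odd prime `p`: `L` is an alternating group, a classical group, a group as in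
`OrdFree p`, `CycAut p`, `ExcFew p`, or as in `ExcAny`, of characteristic `2` or `p`. -/
def AltLieOdd (p : ℕ) (L : Type*) [Group L] : Prop :=
  Alt L ∨ H63.OrdFree p L ∨ CycAut p L ∨ ∃ (F : Type) (_ : Field F) (_ : Finite F),
    (∃ n : ℕ, PSLn n F L) ∨ PSp F L ∨ (∃ n : ℕ, 3 ≤ n ∧ PSUn n F L) ∨
    (∃ n : ℕ, 5 ≤ n ∧ POn n F L) ∨ Exc p ((p : F) = 0 ∨ (2 : F) = 0) F L

/-- The groups that can be eliminated for an odd prime `p`: an alternating group, a group with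
`CycAut p`, `PSL_n(F)`, `PSU_n(q)` with `q ≠ 2, 8`, a symplectic or orthogonal group over a field of odd
characteristic (for `PΩ(Q)`, the characteristic is `p` or `(n, p)` is not `(8, 3)`), a group as in
`ExcFew p`, or as in `ExcAny`, of characteristic `p`. -/
def ElimOdd (p : ℕ) (L : Type*) [Group L] : Prop :=
  Alt L ∨ CycAut p L ∨ ∃ (F : Type) (_ : Field F) (_ : Finite F), (∃ n : ℕ, PSLn n F L) ∨
    (Nat.card F ∉ ({4, 64} : Set ℕ) ∧ ∃ n : ℕ, 3 ≤ n ∧ PSUn n F L) ∨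
    ((2 : F) ≠ 0 ∧ (PSp F L ∨
      ∃ n : ℕ, 5 ≤ n ∧ ((p : F) = 0 ∨ ¬ (n = 8 ∧ p = 3)) ∧ POn n F L)) ∨ Exc p ((p : F) = 0) F L

/-- The groups that can be eliminated for the prime `p`. -/
def ElimLie (p : ℕ) (L : Type*) [Group L] : Prop := (p = 2 ∧ ElimTwo L) ∨ (p ≠ 2 ∧ ElimOdd p L)

end Vale.Agent.P240.R2.H487.N
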