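import Vale.Agent.P240.R2.H112.EuN
import Vale.Agent.P240.R2.H387.E7F
import Vale.Agent.P240.R2.H432.QDefs
import Vale.Agent.P240.R2.H472.FO2
import Vale.Agent.P240.R2.H487.AM3
import Vale.Agent.P240.R2.H487.CG.Defs
import Vale.Agent.P240.R2.H487.N.D
import Vale.Agent.P240.R2.H651.R1.H
import Vale.Agent.P240.R2.H687.FewUA
import Vale.Agent.P240.R2.H945.U4G

/-!
Classical groups as composition factors, for the prime `2`.
-/

set_option autoImplicit false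
set_option linter.all false

namespace Vale.Agent.P240.R2.H487.N

open Subgroup Matrix Vale.Agent.P240.K Vale.Agent.P240.H195
open Vale.Agent.P240.R2.H63 Vale.Agent.P240.R2.H275

universe u v

section
variable {L : Type u} [Group L] {F : Type} [Field F] [Finite F]

lemma PSp.is (h : PSp F L) : IsPSp F L := h

omit [Finite F] in
lemma SUn_eq (n : ℕ) (σ : F ≃+* F) : SUn n σ = CG.GJ n σ := Subgroup.closure_eq (CG.GJ n σ)

omit [Finite F] in
lemma OrtQ_eq {n : ℕ} (Q : QuadraticForm F (Fin n → F)) : OrtQ Q = H432.Q.OQ Q :=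
  Subgroup.closure_eq (H432.Q.OQ Q)

lemma PSUn.is {n : ℕ} (h : PSUn n F L) : H487.PSUn n F L := by
  obtain ⟨σ, h1, h2, h3⟩ := h
  rw [SUn_eq] at h3
  exact ⟨σ, h1, h2, h3⟩

/-- `PSU_n(q)`, `n` odd -/
theorem psu_odd (𝕜 : Type v) [Field 𝕜] (hs : IsSimpleGroup L) (hnab : ∃ x y : L, x * y ≠ y * x)
    {n : ℕ} (hn : 3 ≤ n) (hodd : n % 2 = 1) (h : H487.PSUn n F L) (hq : ¬ SmallU n F) {r : ℕ}
    (hr : r.Prime) (hrF : (r : F) = 0) (hr2 : r ≠ 2) : TopR 𝕜 2 L := by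
  have : Fact (Nat.Prime 2) := ⟨Nat.prime_two⟩
  have hoF := card_odd hr hrF hr2
  have ha : ∃ r : ℕ, r.Prime ∧ AutFree 2 r L := by
    obtain ⟨r, h1, -, -, h2⟩ := h.autFree hs hnab hn hoF
    exact ⟨r, h1, h2⟩
  obtain ⟨q, hft, hstar, hqo, hq3, hK, hst, ⟨e⟩⟩ := h.data hr hrF hr2
  have h3 : q = 3 ∨ q = 5 ∨ 7 ≤ q := by
    obtain ⟨k, rfl⟩ := hqo
    omega
  rcases h3 with h3 | h3 | h3
  · subst h3
    exact Or.inr (Or.inr ⟨(H687.U.fewAut_psu_three_two hK hst hn (Nat.odd_iff.2 hodd)).congr e.symm,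
      ha⟩)
  · subst h3
    have h4 : n % 3 ≠ 0 := fun h4 => hq (Or.inr ⟨by rw [hK]; norm_num, Or.inr h4⟩)
    have h1 : Nat.gcd n (5 + 1) = 1 := by
      have h2 : Nat.Coprime n 2 := Nat.coprime_two_right.2 (Nat.odd_iff.2 hodd)
      have h5 : Nat.Coprime n 3 :=
        ((Nat.Prime.coprime_iff_not_dvd Nat.prime_three).2 fun h5 =>
          h4 (Nat.mod_eq_zero_of_dvd h5)).symm
      exact Nat.Coprime.mul_right h2 h5
    refine Or.inr (Or.inr ⟨(H472.fewAut_psu Nat.prime_two (by norm_num) (by norm_num) hK hst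
      hn ?_ ?_).congr e.symm, ha⟩)
    · rw [h1]
      norm_num
    · rw [h1]
      norm_num
  · left
    have hgcd : 2 * n.gcd (q + 1) ∣ q + 1 := by
      have hqo' := Nat.odd_iff.1 hqo
      refine Nat.Coprime.mul_dvd_of_dvd_of_dvd ?_ (by omega) (Nat.gcd_dvd_right _ _)
      rw [Nat.coprime_two_left]
      obtain ⟨c, hc⟩ : n.gcd (q + 1) ∣ n := Nat.gcd_dvd_left _ _
      by_contra hcon
      rw [Nat.not_odd_iff_even] at hcon
      obtain ⟨d, hd⟩ := hcon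
      have : 2 ∣ n := by rw [hc, hd]; exact ⟨d * c, by ring⟩
      omega
    intro G' _ _ M ⟨f⟩
    exact H387.locTopF_PSU7 (p := 2) 𝕜 hn (by omega) hK hst hgcd (by omega)
      (fun _ => ⟨Nat.odd_iff.2 hodd, h3⟩) ⟨f.symm.trans e⟩

/-- `PSU_n(q)`, `n` even -/
theorem psu_even (𝕜 : Type v) [Field 𝕜]
    (hs : IsSimpleGroup L)
    {n : ℕ} (hn : 3 ≤ n) (hev : n % 2 = 0) (h : H487.PSUn n F L) (hq : ¬ SmallU n F) {r : ℕ}
    (hr : r.Prime) (hrF : (r : F) = 0) (hr2 : r ≠ 2) : TopR 𝕜 2 L := by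
  left
  obtain ⟨q, hft, hstar, hqo, hq3, hK, hst, ⟨e⟩⟩ := h.data hr hrF hr2
  have hq7 : 7 ≤ q := by
    by_contra hcon
    have h3 : q = 3 ∨ q = 5 := by
      obtain ⟨k, rfl⟩ := hqo
      omega
    rcases h3 with h3 | h3
    · exact hq (Or.inl ⟨by rw [hK, h3]; norm_num, hev⟩)
    · exact hq (Or.inr ⟨by rw [hK, h3]; norm_num, Or.inl hev⟩)
  by_cases hn4 : n = 4
  · subst hn4
    exact H945.U4.topFac_psu4 𝕜 ⟨hqo, hK, hst⟩ hq7 hs e
  · exact H387E7.topFac_PSU_even 𝕜 ⟨n, q, F, inferInstance, hft, hstar, Nat.even_iff.2 hev,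
      Or.inl (by omega), hqo, hq7, hK, hst, ⟨e⟩⟩

/-- `PSU_n(q)` -/
theorem psu_topR (𝕜 : Type v) [Field 𝕜]
    (hs : IsSimpleGroup L)
    (hnab : ∃ x y : L, x * y ≠ y * x) {n : ℕ} (hn : 3 ≤ n) (hq : ¬ SmallU n F)
    (h : H487.PSUn n F L) : TopR 𝕜 2 L := by
  obtain ⟨r, hr, hrF⟩ := exists_char' F
  by_cases hr2 : r = 2
  · subst hr2
    exact Or.inr (Or.inl (h.rigid hs hnab hn hrF))
  rcases Nat.mod_two_eq_zero_or_one n with h0 | h0
  · exact psu_even 𝕜 hs hn h0 h hq hr hrF hr2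
  · exact psu_odd 𝕜 hs hnab hn h0 h hq hr hrF hr2

lemma POn.eq {n : ℕ} (h : POn n F L) : ∃ Q : QuadraticForm F (Fin n → F),
    (∀ v, (∀ w, QuadraticMap.polar Q v w = 0) → v = 0) ∧ Nonempty (L ≃* H432.Q.POQ Q) := by
  obtain ⟨Q, h1, h2⟩ := h
  rw [OrtQ_eq] at h2
  exact ⟨Q, h1, h2⟩

lemma POn.is {n : ℕ} (hn : 5 ≤ n) (h : POn n F L) : IsPOm F L := by
  obtain ⟨Q, hQ, e⟩ := h.eq
  exact ⟨n, Q, hn, hQ, e⟩

section

attribute [local instance] starRingOfComm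

/-- `PΩ` of quadratic forms -/
theorem POn.topR (𝕜 : Type v) [Field 𝕜] (hs : IsSimpleGroup L) (hnab : ∃ x y : L, x * y ≠ y * x)
    {n : ℕ} (hn5 : 5 ≤ n) (hq : ¬ SmallO n F) (h : POn n F L) : TopR 𝕜 2 L := by
  by_cases h0 : ¬ Small F
  · exact (h.is hn5).topR 𝕜 hs hnab h0
  rw [not_not] at h0
  have hn : n % 2 = 1 := by
    by_contra hn
    exact hq ⟨h0, by omega⟩
  have h0 : Nat.card F = 3 ∨ Nat.card F = 5 ∨ Nat.card F = 9 ∨ Nat.card F = 25 := h0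
  have hoF : Nat.card F % 2 = 1 := by
    rcases h0 with h0 | h0 | h0 | h0 <;> rw [h0]
  have ha : ∃ r : ℕ, r.Prime ∧ AutFree 2 r L := by
    obtain ⟨r, h1, -, -, h2⟩ := (h.is hn5).autFree hs hnab hoF
    exact ⟨r, h1, h2⟩
  have hft : Fintype F := Fintype.ofFinite F
  obtain ⟨r, hr, hrF⟩ := exists_char' F
  have hr2 := r_ne_two hoF hrF
  have h2 : (2 : F) ≠ 0 := fun h2 => hr2 (char_unique hr Nat.prime_two hrF (by exact_mod_cast h2))
  obtain ⟨Q, hQ, ⟨e⟩⟩ := h.eq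
  obtain ⟨A, hA, hA0, ⟨e'⟩⟩ := H432.Q.poq_pom h2 Q hQ
  by_cases hF : (Nat.card F).Prime
  · exact Or.inr (Or.inr ⟨H651.R1.fewAut_POm_two hF h2 hn5 hn hA hA0 hs (e.trans e'), ha⟩)
  have h7 : 7 ≤ Nat.card F := by
    rcases h0 with h0 | h0 | h0 | h0
    · exact absurd (by rw [h0]; exact Nat.prime_three) hF
    · exact absurd (by rw [h0]; exact Nat.prime_five) hF
    · omega
    · omega
  obtain ⟨m, rfl⟩ : ∃ m, n = m + 1 := ⟨n - 1, by omega⟩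
  obtain ⟨P, c, hc, hP⟩ := OF.similar_odd h2 (by
    rw [Nat.even_iff]
    omega) hA hA0
  obtain ⟨f⟩ := OF.nonempty_POm hc hP
  exact Or.inr (Or.inr ⟨H472.FO.fewAut_Omega2 (K := F) (fun x => rfl) (Nat.odd_iff.2 hoF) h7
    (Nat.odd_iff.2 hn) hn5 ((e.trans e').trans (f.trans OF.pomOne)), ha⟩)

end

/-- elimination, or an `AutFree` group for `l` or `char 𝕜` -/
theorem facT_of {𝕜 : Type v} [Field 𝕜] {p l : ℕ} (hl : l.Prime) {E : Prop}
    (ha : E → CharIn 𝕜 l F) (h1 : ¬ E → TopR 𝕜 p L)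
    (h2 : E → ∃ r : ℕ, r.Prime ∧ r ≠ p ∧ (r : F) = 0 ∧ AutFree p r L) : FacT 𝕜 p l L := by
  by_cases hq : E
  · obtain ⟨r, hr, hrp, hrF, hlie⟩ := h2 hq
    refine Or.inr (Or.inr (Or.inl (Or.inr (Or.inr (Or.inr (Or.inl ⟨r, hr, hlie, ?_⟩))))))
    rcases ha hq with h3 | ⟨s, hs, h3, h4⟩
    · exact Or.inl (char_unique hr hl hrF h3)
    · rw [← char_unique hr hs hrF h3] at h4
      exact Or.inr (Or.inl ⟨hrp, h4⟩)
  · exact (h1 hq).facT l

lemma SmallU.odd {n : ℕ} (h : SmallU n F) : Nat.card F % 2 = 1 := by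
  rcases h with h | h <;> rw [h.1]

/-- unitary groups as composition factors -/
theorem psu_facT {𝕜 : Type v} [Field 𝕜] {l : ℕ}
    (hl : l.Prime) (hs : IsSimpleGroup L) (hnab : ∃ x y : L, x * y ≠ y * x) {n : ℕ} (hn : 3 ≤ n)
    (ha : SmallV n F → CharIn 𝕜 l F) (h : H487.PSUn n F L) : FacT 𝕜 2 l L := by
  by_cases hV : SmallV n F
  · refine facT_of hl ha (fun hq => absurd hV hq) fun hq => h.autFree hs hnab hn ?_
    rcases hq with h | h <;> rw [h.1]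
  by_cases hU : SmallU n F
  · have hE := H112.Eu.psu_eu hs hnab hn hU hV h
    obtain ⟨r, hr, -, -, h2⟩ := h.autFree hs hnab hn hU.odd
    by_cases hd : 2 ∣ Nat.card L
    · exact Or.inr (Or.inr (Or.inl (Or.inr (Or.inr (Or.inl ⟨hE, hd⟩)))))
    · exact Or.inr (Or.inr (Or.inl (Or.inr (Or.inr (Or.inr (Or.inl
        ⟨r, hr, h2, Or.inr (Or.inr (Or.inr hd))⟩))))))
  · exact (psu_topR 𝕜 hs hnab hn hU h).facT l

/-- the fields of even order are not small -/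
lemma SmallO.odd {n : ℕ} (h : SmallO n F) : Nat.card F % 2 = 1 := by
  have h : Nat.card F = 3 ∨ Nat.card F = 5 ∨ Nat.card F = 9 ∨ Nat.card F = 25 := h.1
  rcases h with h | h | h | h <;> rw [h]

/-- orthogonal groups as composition factors -/
theorem POn.facT {𝕜 : Type v} [Field 𝕜] {l : ℕ}
    (hl : l.Prime) (hs : IsSimpleGroup L) (hnab : ∃ x y : L, x * y ≠ y * x) {n : ℕ} (hn : 5 ≤ n)
    (ha : SmallO n F → CharIn 𝕜 l F) (h : POn n F L) : FacT 𝕜 2 l L :=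
  facT_of hl ha (fun hq => h.topR 𝕜 hs hnab hn hq) fun hq =>
    (h.is hn).autFree hs hnab hq.odd

end

end Vale.Agent.P240.R2.H487.N
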