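import Vale.Agent.P240.R2.H487.AD2
import Vale.Agent.P240.V.QDefs
import Vale.Agent.P240.V.RDefs

/-!
Conditions on composition factors and components.
-/

set_option autoImplicit false

namespace Vale.Agent.P240.R2.H487.N

open Subgroup Vale.Agent.P240 Vale.Agent.P240.K Vale.Agent.P240.H195

universe u v

/-- Every nonabelian composition factor of `G` of order divisible by `p` satisfies `P`. -/
def Factors (p : ℕ) (G : Type u) [Group G] (P : ∀ (L : Type u) [Group L], Prop) : Prop :=
  ∀ (L : Type u) [Group L], CompFactor G L → p ∣ Nat.card L → P L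

section
variable {G : Type u} [Group G]

/-- `N` is the largest normal `p'`-subgroup of `G`, and the components of `C_G(N) / (N ∩ C_G(N))`
satisfy `P`. -/
def RedComp (p : ℕ) (N : Subgroup G) [N.Normal] (P : ∀ (L : Type u) [Group L], Prop) : Prop :=
  ¬ p ∣ Nat.card N ∧ (∀ X : Subgroup G, X.Normal → ¬ p ∣ Nat.card X → X ≤ N) ∧
    ∀ L ∈ Q.Comp (Reduced N), P L

/-- The elements of `G` that centralize all members of `D`. -/
def CenFam (D : Set (Subgroup G)) : Subgroup G := ⨅ L ∈ D, centralizer (L : Set G)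

/-- `D` is stable under conjugation, and the members of `D` commute with each other. -/
def Family (D : Set (Subgroup G)) : Prop :=
  (∀ L ∈ D, ∀ g : G, L.map (MulAut.conj g).toMonoidHom ∈ D) ∧
    ∀ L ∈ D, ∀ M ∈ D, L ≠ M → ∀ x ∈ L, ∀ y ∈ M, x * y = y * x

end

/-- `L` is a nonabelian simple group of order divisible by `p`. -/
def SimpleDiv (p : ℕ) (L : Type*) [Group L] : Prop :=
  IsSimpleGroup L ∧ (∃ x y : L, x * y ≠ y * x) ∧ p ∣ Nat.card L

/-- `G` is a minimal counterexample to Quillen's conjecture for `p` with coefficients in `𝕜`. -/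
def MinCounter (𝕜 : Type v) [Field 𝕜] (p : ℕ) (G : Type u) [Group G] : Prop :=
  OpTrivial p G ∧ ¬ K.HQ 𝕜 p G ∧ ∀ (H : Type u) [Group H] [Finite H],
    Nat.card H < Nat.card G → OpTrivial p H → K.HQ 𝕜 p H

end Vale.Agent.P240.R2.H487.N
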