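import Vale.Agent.P240.R2.H165.XF
import Vale.Agent.P240.R2.H281.EB
import Vale.Agent.P240.R2.H387.O9
import Vale.Agent.P240.R2.H487.N.D
import Vale.Agent.P240.R2.H775.Re3
import Vale.Agent.P240.R2.H775.Sz6
import Vale.Agent.P240.R2.H945.W.TwF
import Vale.Agent.P240.R2.H986.X.P5

/-!
Groups of Lie type of exceptional type.
-/

set_option autoImplicit false
set_option linter.all false

namespace Vale.Agent.P240.R2.H487.N

open Vale.Agent.P240.H195

universe u v

/-- composition factors of finite groups are finite -/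
lemma finite_of_factor {G : Type u} [Group G] [Finite G] {L : Type v} [Group L]
    (h : CompFactor G L) : Finite L := by
  obtain ⟨-, -, A, f, -, hf⟩ := h
  exact Finite.of_surjective f hf

lemma IsSz.is {F : Type*} [Field F] {L : Type*} [Group L] (h : IsSz F L) : H775.Sz.IsSz F L := h

section
variable {F : Type} [Field F] {L : Type u} [Group L]

lemma sz_char (h : IsSz F L) {r : ℕ} (hr : r.Prime) [CharP F r] : r = 2 := by
  obtain ⟨θ, hθ, -, -⟩ := h
  have h2 : (2 : F) = 0 := H775.Sz.two_zero hθ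
  exact (Nat.prime_dvd_prime_iff_eq hr Nat.prime_two).1
    ((CharP.cast_eq_zero_iff F r 2).1 (by exact_mod_cast h2))

lemma ree_char (h : H775.Re.IsRee F L) {r : ℕ} (hr : r.Prime) [CharP F r] : r = 3 := by
  obtain ⟨θ, hθ, hne, -⟩ := h
  have h3 : (3 : F) = 0 := H775.Re.three hθ hne
  exact (Nat.prime_dvd_prime_iff_eq hr Nat.prime_three).1
    ((CharP.cast_eq_zero_iff F r 3).1 (by exact_mod_cast h3))

lemma tits_char (h : H387.Is2F4 F L) {r : ℕ} (hr : r.Prime) [CharP F r] : r = 2 := by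
  obtain ⟨θ, -, hθ, -⟩ := h
  have h1 : (1 + 1 : F) ^ 2 = 1 + 1 := by
    rw [← hθ, map_add, map_add, map_one, map_one]
  have h2 : ((2 : ℕ) : F) = 0 := by
    push_cast
    linear_combination h1
  exact (Nat.prime_dvd_prime_iff_eq hr Nat.prime_two).1 ((CharP.cast_eq_zero_iff F r 2).1 h2)

lemma e6_chevFew {p : ℕ} (h5 : 5 ≤ p) (h : H165.IsChevA CartanMatrix.E₆ F L) :
    H165.IsChevFew p F L :=
  Or.inr (Or.inr (Or.inr ⟨by omega, by omega, h⟩))

/-- groups of Lie type with few outer automorphisms -/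
theorem ExcFew.main [Finite F] [Finite L] {p : ℕ} (hp : p.Prime) (h : ExcFew p F L)
    (hs : IsSimpleGroup L) (hab : ∃ x y : L, x * y ≠ y * x) (r : ℕ) [hr : Fact r.Prime]
    [CharP F r] : LieType r L ∧ RigidLie r L ∧ (p ≠ r → FewAut p L) := by
  rcases h with h | h | ⟨h, hc⟩ | h | h | h | h | h
  · have h1 := h.main hs hab r
    exact ⟨h1.1, h1.2, fun hpr => h.few_all hs hab hp hpr⟩
  · have h0 : H165.IsChevFew p F L := Or.inr (Or.inl h)
    have h1 := h0.main hs hab r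
    exact ⟨h1.1, h1.2, fun hpr => h0.few hs hab hp hpr⟩
  · have h1 := (e6_chevFew (p := 5) le_rfl h).main hs hab r
    refine ⟨h1.1, h1.2, fun hpr => ?_⟩
    rcases hc with hc | ⟨h2, h3⟩ | ⟨h2, h3, h4⟩
    · exact (e6_chevFew hc h).few hs hab hp hpr
    · exact H281EB.IsChevE.few (Or.inr ⟨h2, h3, h⟩) hs hab
    · exact H281EB.IsChevE.few (Or.inl ⟨h2, h4, Or.inr ⟨h3, h⟩⟩) hs hab
  · exact ⟨h.lie hs hab r, h.rigid hs hab r, fun hpr => h.few hs hab hp hpr⟩
  · have h1 := h.main hs hab r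
    exact ⟨h1.1, h1.2, fun hpr => h.few hs hab hp hpr⟩
  · have h1 := tits_char h hr.out
    subst h1
    exact ⟨h.lieType hs hab, h.rigidLie hs hab, fun _ => h.fewAut hs hab hp⟩
  · have h1 := sz_char h hr.out
    subst h1
    exact ⟨h.is.lie hs, h.is.rigid hs, fun hpr => h.is.fewAut hs hp⟩
  · have h1 := ree_char h hr.out
    subst h1
    exact ⟨h.lie hs, h.rigid hs, fun _ => h.fewAut hs hp⟩

/-- groups of Lie type -/
theorem ExcAny.main [Finite F] [Finite L] (h : ExcAny F L) (hs : IsSimpleGroup L)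
    (hab : ∃ x y : L, x * y ≠ y * x) (r : ℕ) [hr : Fact r.Prime] [CharP F r] :
    LieType r L ∧ RigidLie r L := by
  rcases h with h | h
  · exact (e6_chevFew (p := 5) le_rfl h).main hs hab r
  · exact ⟨h.lie hs hab r, h.rigid hs hab r⟩

end

section
variable {F : Type} [Field F] [Finite F] {L : Type u} [Group L] [Finite L]

lemma Exc.lie {p : ℕ} (hp : p.Prime) {c : Prop} (h : Exc p c F L) (hs : IsSimpleGroup L)
    (hab : ∃ x y : L, x * y ≠ y * x) (r : ℕ) [hr : Fact r.Prime] [CharP F r] :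
    LieType r L ∧ RigidLie r L := by
  rcases h with h | h
  · exact ⟨(h.main hp hs hab r).1, (h.main hp hs hab r).2.1⟩
  · exact h.2.main hs hab r

lemma char_eq {p r : ℕ} (hp : p.Prime) (hr : r.Prime) [CharP F r] (h : (p : F) = 0) : p = r :=
  ((Nat.prime_dvd_prime_iff_eq hr hp).1 ((CharP.cast_eq_zero_iff F r p).1 h)).symm

/-- elimination -/
theorem Exc.elim {p : ℕ} [hp : Fact p.Prime] {c : Prop} (h : Exc p c F L) (hs : IsSimpleGroup L)
    (hab : ∃ x y : L, x * y ≠ y * x) (hc : c → (p : F) = 0) :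
    RigidLie p L ∨ (FewAut p L ∧ ∃ r : ℕ, r.Prime ∧ AutFree p r L) := by
  obtain ⟨r, hrc⟩ := CharP.exists F
  have hr : Fact r.Prime := ⟨(CharP.char_is_prime_or_zero F r).resolve_right
    (CharP.char_ne_zero_of_finite F r)⟩
  have h1 := h.lie hp.out hs hab r
  by_cases hpr : p = r
  · subst hpr
    exact Or.inl h1.2
  · rcases h with h | ⟨h2, -⟩
    · exact Or.inr ⟨(h.main hp.out hs hab r).2.2 hpr, r, hr.out, h1.1.autFree hr.out hp.out hpr⟩
    · exact absurd (char_eq hp.out hr.out (hc h2)) hpr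

/-- `GoodFactor` -/
theorem Exc.good {p : ℕ} [hp : Fact p.Prime] {c : Prop} (h : Exc p c F L) (hs : IsSimpleGroup L)
    (hab : ∃ x y : L, x * y ≠ y * x) (𝕜 : Type v) [Field 𝕜] {l : ℕ} (hl : l.Prime)
    (hc : c → (p : F) = 0 ∨ (l : F) = 0 ∨ ∃ r : ℕ, r.Prime ∧ (r : F) = 0 ∧ (r : 𝕜) = 0) :
    GoodFactor 𝕜 p l L := by
  obtain ⟨r, hrc⟩ := CharP.exists F
  have hr : Fact r.Prime := ⟨(CharP.char_is_prime_or_zero F r).resolve_right
    (CharP.char_ne_zero_of_finite F r)⟩
  have h1 := h.lie hp.out hs hab r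
  by_cases hpr : p = r
  · subst hpr
    exact Or.inr (Or.inl h1.2)
  refine Or.inr (Or.inr (Or.inr (Or.inl ⟨r, hr.out, h1.1.autFree hr.out hp.out hpr, ?_⟩)))
  rcases h with h | ⟨h2, -⟩
  · exact Or.inr (Or.inr (Or.inl ((h.main hp.out hs hab r).2.2 hpr)))
  · rcases hc h2 with h3 | h3 | ⟨t, ht, h3, h4⟩
    · exact absurd (char_eq hp.out hr.out h3) hpr
    · exact Or.inl (char_eq hl hr.out h3).symm
    · have := char_eq ht hr.out h3
      subst this
      exact Or.inr (Or.inl ⟨Ne.symm hpr, h4⟩)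

end

end Vale.Agent.P240.R2.H487.N
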