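import Vale.Agent.P240.R2.H63.OddElim
import Vale.Agent.P240.R2.H63.OddMain4
import Vale.Agent.P240.R2.H63.OrdF
import Vale.Agent.P240.R2.H487.AM4
import Vale.Agent.P240.R2.H487.N.M3
import Vale.Agent.P240.R2.H487.N.S
import Vale.Agent.P240.R2.H487.N.X
import Vale.Agent.P240.R2.H613.Cyc
import Vale.Agent.P240.R2.H651.L.C
import Vale.Agent.P240.R2.H727.Q5F

/-!
The main theorem for the prime `2`: alternating groups and classical groups.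
-/

set_option autoImplicit false
set_option linter.all false

namespace Vale.Agent.P240.R2.H487.N

open Subgroup Matrix Vale.Agent.P240.K Vale.Agent.P240.H195
open Vale.Agent.P240.R2.H63 Vale.Agent.P240.R2.H275

universe u v

section
variable {L : Type u} [Group L] {F : Type} [Field F] [Finite F]

/-- `PSL_n(F)` -/
lemma PSLn.linTwo {𝕜 : Type v} [Field 𝕜] {l n : ℕ}
    (ha : TwoPow n → Small F → CharIn 𝕜 l F ∨ (l = 2 ∧ Nat.card F = 3 ∧ n ≠ 8))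
    (h : PSLn n F L) : LinTwo 𝕜 l L :=
  ⟨n, F, inferInstance, inferInstance, fun a h1 h2 h3 => or_assoc.1 (ha ⟨a, h1, h2⟩ h3), h⟩

/-- `PSL_n(F)`, `|F|` even, or `n` a power of `2`, or `n` prime to `|F| - 1` -/
lemma PSLn.elim {𝕜 : Type v} [Field 𝕜] {n : ℕ} (hs : IsSimpleGroup L)
    (hn : ∃ x y : L, x * y ≠ y * x) (hq : (2 : F) = 0 ∨ (TwoPow n ∧ ¬ Small F) ∨ n = 2 ∨
      (n.Coprime (Nat.card F - 1) ∧ ¬ IsSquare (Nat.card F)))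
    (h : PSLn n F L) :
    RigidLie 2 L ∨ PauliPSL L ∨ (FewAut 2 L ∧ ∃ r : ℕ, r.Prime ∧ AutFree 2 r L) := by
  by_cases h2 : (2 : F) = 0
  · obtain ⟨e⟩ := h
    have hn2 := psl_two_le hn e
    obtain ⟨m, rfl⟩ : ∃ m, n = m + 1 := ⟨n - 1, by omega⟩
    have : CharP F 2 := CG.charP_of Nat.prime_two (by exact_mod_cast h2)
    have hc := centreless_of_simple hs hn
    have hs' : IsSimpleGroup (PL m F) := e.symm.isSimpleGroup
    have hc' : ∀ x : PL m F, (∀ y, x * y = y * x) → x = 1 := centreless_tr e hc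
    exact Or.inl ((psl_rigidLie (by omega) hs' hc').tr e.symm)
  rcases hq.resolve_left h2 with ⟨⟨a, ha, hna⟩, hS⟩ | h3
  · obtain ⟨e⟩ := h
    obtain ⟨r, hr, hrF⟩ := exists_char' F
    have hr2 : r ≠ 2 := by
      rintro rfl
      exact h2 (by exact_mod_cast hrF)
    exact Or.inr (Or.inl ⟨n, a, F, inferInstance, inferInstance, hna, ha, card_odd hr hrF hr2, hS,
      ⟨e.symm⟩⟩)
  · obtain ⟨e⟩ := h
    exact Or.inr (Or.inr (H651.L.psl_few' hs hn h2 h3 e))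

end

section
variable {G : Type u} [Group G]

/-- the groups in the main theorem -/
lemma AltLieAt.facS [Finite G] {𝕜 : Type v} [Field 𝕜] {l : ℕ} (hl : l.Prime) {L : Type u}
    [Group L] (hL : CompFactor G L) (h : AltLieAt 𝕜 l L ∨ Other 𝕜 2 l L) : FacS 𝕜 2 l L := by
  have : Fact (Nat.Prime 2) := ⟨Nat.prime_two⟩
  have := finite_of_factor hL
  rcases h with
    (h | h | ⟨F, hF1, hF2, ⟨n, ha, h⟩ | h | ⟨n, hn, ha, h⟩ | ⟨n, hn, ha, h⟩ | h⟩) | h | h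
  · exact Or.inl (Or.inr (Or.inr (Or.inl (Or.inl h))))
  · exact Or.inl (Or.inr (Or.inr (Or.inl (h.good hL.1 hL.2.1 𝕜 _))))
  · exact Or.inl (Or.inr ((h.linTwo ha).listed hl hL))
  · exact Or.inl ((h.is.topR 𝕜 hL.1 hL.2.1).facT l)
  · exact Or.inl (psu_facT hl hL.1 hL.2.1 hn ha h.is)
  · exact Or.inl (h.facT hl hL.1 hL.2.1 hn ha)
  · refine Or.inl (Or.inr (Or.inr (Or.inl (h.good hL.1 hL.2.1 𝕜 hl fun hc => ?_))))
    exact hc.imp (fun hc => by exact_mod_cast hc) id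
  · exact Or.inl (Or.inr (Or.inr (Or.inl h)))
  · exact Or.inr h

/-- small fields of characteristic `3` and `5` -/
lemma charIn_three {𝕜 : Type v} [Field 𝕜] (h3 : (3 : 𝕜) = 0) {F : Type} [Field F]
    [Finite F] (hS : ∃ t : ℕ, Nat.card F = 3 ^ t ∨ Nat.card F = 5 ^ t) : CharIn 𝕜 5 F :=
  adm_three h3 (S := Set.univ) (fun _ => hS) trivial

lemma SmallV.charIn {𝕜 : Type v} [Field 𝕜] (h3 : (3 : 𝕜) = 0) {F : Type} [Field F]
    [Finite F] {n : ℕ} (h : SmallV n F) : CharIn 𝕜 5 F :=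
  charIn_three h3 (by
    rcases h with ⟨h, -⟩ | ⟨h, -⟩
    · exact ⟨2, Or.inl (by rw [h]; norm_num)⟩
    · exact ⟨2, Or.inr (by rw [h]; norm_num)⟩)

lemma Small.charIn {𝕜 : Type v} [Field 𝕜] (h3 : (3 : 𝕜) = 0) {F : Type} [Field F]
    [Finite F] (h : Small F) : CharIn 𝕜 5 F :=
  charIn_three h3 (by
    have h : Nat.card F = 3 ∨ Nat.card F = 5 ∨ Nat.card F = 9 ∨ Nat.card F = 25 := h
    rcases h with h | h | h | h
    · exact ⟨1, Or.inl (by rw [h]; norm_num)⟩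
    · exact ⟨1, Or.inr (by rw [h]; norm_num)⟩
    · exact ⟨2, Or.inl (by rw [h]; norm_num)⟩
    · exact ⟨2, Or.inr (by rw [h]; norm_num)⟩)

lemma SmallO.charIn {𝕜 : Type v} [Field 𝕜] (h3 : (3 : 𝕜) = 0) {F : Type} [Field F]
    [Finite F] {n : ℕ} (h : SmallO n F) : CharIn 𝕜 5 F := h.1.charIn h3

lemma char_30 {𝕜 : Type v} [Field 𝕜] (h3 : (3 : 𝕜) = 0) {F : Type} [Field F]
    (h : (30 : F) = 0) : (2 : F) = 0 ∨ CharIn 𝕜 5 F := by
  have h2 : (2 : F) * (3 * 5) = 0 := by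
    have h3 : (2 : F) * (3 * 5) = 30 := by norm_num
    rw [h3, h]
  rcases mul_eq_zero.1 h2 with h2 | h2
  · exact Or.inl h2
  rcases mul_eq_zero.1 h2 with h2 | h2
  · exact Or.inr (Or.inr ⟨3, Nat.prime_three, by exact_mod_cast h2, by exact_mod_cast h3⟩)
  · exact Or.inr (Or.inl (by exact_mod_cast h2))

lemma AltLie.at {𝕜 : Type v} [Field 𝕜] (h3 : (3 : 𝕜) = 0) {L : Type u} [Group L]
    (h : AltLie L) : AltLieAt 𝕜 5 L := by
  refine h.imp id fun h => h.imp id fun h => ?_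
  obtain ⟨F, hF1, hF2, ⟨n, h⟩ | h | ⟨n, hn, h⟩ | ⟨n, hn, h⟩ | h⟩ := h
  · exact ⟨F, hF1, hF2, Or.inl ⟨n, fun _ h => Or.inl (h.charIn h3), h⟩⟩
  · exact ⟨F, hF1, hF2, Or.inr (Or.inl h)⟩
  · exact ⟨F, hF1, hF2, Or.inr (Or.inr (Or.inl ⟨n, hn, fun h => h.charIn h3, h⟩))⟩
  · exact ⟨F, hF1, hF2, Or.inr (Or.inr (Or.inr (Or.inl ⟨n, hn, fun h => h.charIn h3, h⟩)))⟩
  · exact ⟨F, hF1, hF2, Or.inr (Or.inr (Or.inr (Or.inr (h.imp id fun h =>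
      ⟨char_30 h3 h.1, h.2⟩))))⟩

/-- **Main theorem**, `p = 2`, composition factors, any field `𝕜`, any prime `l` -/
theorem clas_factor [Fact (Nat.Prime 2)] [Finite G] {𝕜 : Type v} [Field 𝕜] {l : ℕ} (hl : l.Prime)
    (hO : OpTrivial 2 G) (h : Factors 2 G fun L _ => AltLieAt 𝕜 l L ∨ Other 𝕜 2 l L) :
    HQ 𝕜 2 G :=
  factor_mainS hl hO fun L _ hL hd => AltLieAt.facS hl hL (h L hL hd)

/-- **Main theorem**, `p = 2`, composition factors, without exceptions -/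
theorem clas_three [Fact (Nat.Prime 2)] [Finite G] {𝕜 : Type v} [Field 𝕜] (h3 : (3 : 𝕜) = 0)
    (hO : OpTrivial 2 G) (h : Factors 2 G fun L _ => AltLie L ∨ Other 𝕜 2 5 L) : HQ 𝕜 2 G :=
  clas_factor Nat.prime_five hO fun L _ hL hd => (h L hL hd).imp (fun h => h.at h3) id

/-- **Main theorem**, `p = 2`, components -/
theorem clas_comp [Fact (Nat.Prime 2)] [Finite G] {𝕜 : Type v} [Field 𝕜] {l : ℕ} (hl : l.Prime)
    (hO : OpTrivial 2 G) (N : Subgroup G) [N.Normal]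
    (h : RedComp 2 N fun L _ => AltLieAt 𝕜 l L ∨ (l = 5 ∧ (3 : 𝕜) = 0 ∧ AltLie L) ∨
      Other 𝕜 2 l L) : HQ 𝕜 2 G := by
  refine comp_mainS hl hO N h.1 h.2.1 fun L hL hc => AltLieAt.facS hl hc ?_
  rcases h.2.2 L hL with h1 | ⟨h1, h2, h3⟩ | h1
  · exact Or.inl h1
  · subst h1
    exact Or.inl (h3.at h2)
  · exact Or.inr h1

/-- the groups that can be eliminated -/
lemma ElimTwo.elim (𝕜 : Type v) [Field 𝕜] [Finite G] [Fact (Nat.Prime 2)] {L : Subgroup G}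
    (hs : IsSimpleGroup L) (hn : ∃ x y : L, x * y ≠ y * x) (h : ElimTwo L) :
    TopFac 𝕜 2 L ∨ LocN 2 L ∨ Removable 𝕜 2 L ∨ RigidLie 2 L ∨
      (((2 : ℕ) : 𝕜) = 0 ∧ JumpSub 𝕜 2 L) ∨ ((2 : ℕ) = 2 ∧ IsSimpleGroup L ∧ PauliPSL L) := by
  rcases h with h | ⟨F, hF1, hF2, ⟨n, hq, h⟩ | h | ⟨n, hn3, hq, h⟩ | ⟨n, hn5, hq, h⟩ | h⟩
  · exact Or.inr (Or.inr (Or.inl (removable_alt h)))
  · rcases h.elim (𝕜 := 𝕜) hs hn hq with h | h | h
    · exact Or.inr (Or.inr (Or.inr (Or.inl h)))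
    · exact Or.inr (Or.inr (Or.inr (Or.inr (Or.inr ⟨rfl, hs, h⟩))))
    · exact TopR.elim (Or.inr (Or.inr h))
  · exact (h.is.topR 𝕜 hs hn).elim
  · exact (psu_topR 𝕜 hs hn hn3 hq h.is).elim
  · exact (h.topR 𝕜 hs hn hn5 hq).elim
  · exact TopR.elim (Or.inr (h.elim hs hn fun hc => by exact_mod_cast hc))

/-- the groups that can be eliminated, odd primes -/
lemma ElimOdd.elim (𝕜 : Type v) [Field 𝕜] [Finite G] {p : ℕ} [hp : Fact p.Prime] (hp2 : p ≠ 2)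
    {L : Subgroup G} (hs : IsSimpleGroup L) (hn : ∃ x y : L, x * y ≠ y * x)
    (hd : p ∣ Nat.card L) (h : ElimOdd p L) :
    TopFac 𝕜 p L ∨ LocN p L ∨ Removable 𝕜 p L ∨ RigidLie p L ∨
      ((p : 𝕜) = 0 ∧ JumpSub 𝕜 p L) ∨ (p = 2 ∧ IsSimpleGroup L ∧ PauliPSL L) := by
  have key : Odd.AltClasOE p L → TopFac 𝕜 p L ∨ LocN p L ∨ Removable 𝕜 p L ∨ RigidLie p L ∨
      ((p : 𝕜) = 0 ∧ JumpSub 𝕜 p L) ∨ (p = 2 ∧ IsSimpleGroup L ∧ PauliPSL L) :=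
    fun h => h.elim 𝕜 hp2 hs hn hd
  rcases h with h | h | ⟨F, hF1, hF2, ⟨n, h⟩ | ⟨hF, n, hn3, h⟩ | ⟨h2, h | ⟨n, hn5, hc, h⟩⟩ | h⟩
  · exact key (Or.inl h)
  · exact Or.inl (H613.topFac_of_cyc hs hn hd h 𝕜)
  · exact key (Or.inr ⟨F, hF1, hF2, Or.inl ⟨n, h⟩⟩)
  · exact key (Or.inr ⟨F, hF1, hF2, Or.inr (Or.inl ⟨hF, n, hn3, h.is⟩)⟩)
  · exact key (Or.inr ⟨F, hF1, hF2, Or.inr (Or.inr ⟨h2, Or.inl h⟩)⟩)
  · obtain ⟨Q, hQ, e⟩ := h.eq
    exact key (Or.inr ⟨F, hF1, hF2, Or.inr (Or.inr ⟨h2, Or.inr ⟨n, Q, hn5, hQ, hc, e⟩⟩)⟩)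
  · exact TopR.elim (Or.inr (h.elim hs hn id))

/-- the groups that can be eliminated, all primes -/
lemma ElimLie.elim (𝕜 : Type v) [Field 𝕜] [Finite G] {p : ℕ} [hp : Fact p.Prime]
    {L : Subgroup G} (hs : IsSimpleGroup L) (hn : ∃ x y : L, x * y ≠ y * x)
    (hd : p ∣ Nat.card L) (h : ElimLie p L) :
    TopFac 𝕜 p L ∨ LocN p L ∨ Removable 𝕜 p L ∨ RigidLie p L ∨
      ((p : 𝕜) = 0 ∧ JumpSub 𝕜 p L) ∨ (p = 2 ∧ IsSimpleGroup L ∧ PauliPSL L) := by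
  rcases h with ⟨rfl, h⟩ | ⟨hp2, h⟩
  · exact h.elim 𝕜 hs hn
  · exact h.elim 𝕜 hp2 hs hn hd

/-- **Elimination** -/
theorem lie_family [Finite G] {𝕜 : Type v} [Field 𝕜] {p : ℕ} (hp : p.Prime)
    {D : Set (Subgroup G)} (hD : Family D) (h : ∀ L ∈ D, SimpleDiv p L ∧ ElimLie p L)
    (hC : HQ 𝕜 p (CenFam D)) : HQ 𝕜 p G := by
  have : Fact p.Prime := ⟨hp⟩
  refine family_elimT hD.1 hD.2 (fun L hL x hx hxy => ?_) (fun L hL => (h L hL).1.2.2)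
    (fun L hL => (h L hL).2.elim 𝕜 (h L hL).1.1 (h L hL).1.2.1 (h L hL).1.2.2) hC
  have h1 := centreless_of_simple (h L hL).1.1 (h L hL).1.2.1 ⟨x, hx⟩ fun y =>
    Subtype.ext (hxy y y.2)
  exact congrArg Subtype.val h1

/-- **Minimal counterexamples** -/
theorem lie_minimal [Finite G] {𝕜 : Type v} [Field 𝕜] {p : ℕ} (hp : p.Prime)
    (h : MinCounter 𝕜 p G) : ∀ L ∈ Q.Comp G, ¬ ElimLie p L := by
  have : Fact p.Prime := ⟨hp⟩
  obtain ⟨hO, hG, hmin⟩ := h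
  intro L hL h
  have hO' := (H612.minimal_main hO hG hmin).1
  have hf := comp_factor hO hO' hL
  exact minimal_top hO hG hmin hL (h.elim 𝕜 hf.1 hf.2.1 (l2_dvd hO' L hL))

/-- the groups for odd primes -/
lemma AltLieOdd.facS {𝕜 : Type v} [Field 𝕜] [Finite G] {p : ℕ} [hp : Fact p.Prime] (hp2 : p ≠ 2)
    {L : Type u} [Group L] (hL : CompFactor G L) (hd : p ∣ Nat.card L)
    (h : AltLieOdd p L ∨ Other 𝕜 p 2 L) : FacS 𝕜 p 2 L := by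
  have := finite_of_factor hL
  have key : Odd.Cov 𝕜 p L → FacS 𝕜 p 2 L := fun h => Or.inl (h.imp (fun h _ => h) id)
  rcases h with (h | h | h | ⟨F, hF1, hF2, ⟨n, ⟨e⟩⟩ | h | ⟨n, hn, h⟩ | ⟨n, hn, h⟩ | h⟩) | h | h
  · exact key (Odd.Cov.good (Or.inl h))
  · exact key (Odd.Cov.good (h.good hL.1 hL.2.1 𝕜 _))
  · exact key (Or.inl (H613.topFac_of_cyc hL.1 hL.2.1 hd h 𝕜))
  · exact key (Odd.cov_PSL hp2 hL e 𝕜)
  · exact key (Odd.cov_PSp hp2 hL.1 hL.2.1 h.is hd 𝕜)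
  · exact key (Odd.cov_PSUn hp2 hL.1 hL.2.1 hn h.is hd 𝕜)
  · obtain ⟨Q, hQ, ⟨e⟩⟩ := h.eq
    exact key (Odd.cov_POQ_five H727.Q5.q5_inner hp2 hL.1 hL.2.1 hd hn hQ e 𝕜)
  · refine key (Odd.Cov.good (h.good hL.1 hL.2.1 𝕜 Nat.prime_two fun hc => ?_))
    rcases hc with hc | hc
    · exact Or.inl hc
    · exact Or.inr (Or.inl (by exact_mod_cast hc))
  · exact key (Odd.Cov.good h)
  · exact Or.inr h

/-- **Main theorem**, odd primes, any field `𝕜`, composition factors -/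
theorem odd_factor {p : ℕ} (hp : p.Prime) (hp2 : p ≠ 2) [Finite G] {𝕜 : Type v} [Field 𝕜]
    (hO : OpTrivial p G) (h : Factors p G fun L _ => AltLieOdd p L ∨ Other 𝕜 p 2 L) :
    HQ 𝕜 p G := by
  have : Fact p.Prime := ⟨hp⟩
  exact factor_mainS Nat.prime_two hO fun L _ hL hd => AltLieOdd.facS hp2 hL hd (h L hL hd)

end

end Vale.Agent.P240.R2.H487.N
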